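import Vale.Agent.P032.H636.HE4
import Vale.Agent.P032.H98.MRow

/-!
# P032: row (E) of L1+: no EE end

`V = (ab | cd)`, `y = (ac | ef)` at distance one: impossible in the world `NoComp`, `NoThree` with the
list `List98` (the harmless ends of an M vertex are excluded).  The mode of `y` decides: plain-free on
`a, c` is `no_he_end636`; plain-free on `e, f` puts `e` into `T V`; and if `y` is an M vertex then `V` is
a harmless end of `y`.
-/

open Set Filter Topology Metric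

noncomputable section

namespace Vale.Agent.P032.H636

open Vale.Agent.P032.Six Vale.Agent.P032.S5.H767 Vale.Agent.P032.H961 Vale.Agent.P032.H98
  Vale.Agent.P032.H800

variable {U : Fin 6 → Set ℂ} {T : ℂ → Set (Fin 6)} {V y : ℂ} {a b c d e f : Fin 6}

/-- `V` is a harmless end of the M vertex `y = (ac | ef)` in each mode -/
theorem harm636 (h : Irr U T) (hV : DPt T V a b c d) (nd : [a, b, c, d, e, f].Nodup) {g g' : Fin 6}
    (hg : (g = b ∧ g' = d) ∨ (g = d ∧ g' = b)) : Harm353 T g g' V := by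
  simp only [List.nodup_cons, List.mem_cons, List.not_mem_nil, or_false, not_or,
    List.nodup_nil, and_true, not_false_eq_true] at nd
  obtain ⟨⟨hab, hac, had, hae, haf⟩, ⟨hbc, hbd, hbe, hbf⟩, ⟨hcd, hce, hcf⟩, ⟨hde, hdf⟩, hef⟩ := nd
  refine ⟨{a, b}, {c, d}, PQ738.of_dpt h hV, ?_, ?_, ?_⟩
  · intro h1
    have h2 : a ∈ ({g, g'} : Set (Fin 6)) := by rw [← h1]; simp
    rcases hg with ⟨rfl, rfl⟩ | ⟨rfl, rfl⟩ <;> rcases h2 with h2 | h2
    · exact hab h2
    · exact had h2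
    · exact had h2
    · exact hab h2
  · intro h1
    have h2 : c ∈ ({g, g'} : Set (Fin 6)) := by rw [← h1]; simp
    rcases hg with ⟨rfl, rfl⟩ | ⟨rfl, rfl⟩ <;> rcases h2 with h2 | h2
    · exact hbc h2.symm
    · exact hcd h2
    · exact hcd h2
    · exact hbc h2.symm
  · rw [hV.pal]
    rcases hg with ⟨rfl, rfl⟩ | ⟨rfl, rfl⟩ <;> simp

theorem nd2 (nd : [a, b, c, d, e, f].Nodup) {g g' : Fin 6}
    (hg : (g = b ∧ g' = d) ∨ (g = d ∧ g' = b)) : [a, c, e, f, g, g'].Nodup := by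
  simp only [List.nodup_cons, List.mem_cons, List.not_mem_nil, or_false, not_or,
    List.nodup_nil, and_true, not_false_eq_true] at nd ⊢
  obtain ⟨⟨hab, hac, had, hae, haf⟩, ⟨hbc, hbd, hbe, hbf⟩, ⟨hcd, hce, hcf⟩, ⟨hde, hdf⟩, hef⟩ := nd
  rcases hg with ⟨rfl, rfl⟩ | ⟨rfl, rfl⟩
  · exact ⟨⟨hac, hae, haf, hab, had⟩, ⟨hce, hcf, Ne.symm hbc, hcd⟩,
      ⟨hef, Ne.symm hbe, Ne.symm hde⟩, ⟨Ne.symm hbf, Ne.symm hdf⟩, hbd⟩
  · exact ⟨⟨hac, hae, haf, had, hab⟩, ⟨hce, hcf, hcd, Ne.symm hbc⟩,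
      ⟨hef, Ne.symm hde, Ne.symm hbe⟩, ⟨Ne.symm hdf, Ne.symm hbf⟩, Ne.symm hbd⟩

/-- **row (E)**, the mode of `V` is not used -/
theorem erow636 (X : XC U T) (L : List98 T) (hV : DPt T V a b c d)
    (nd : [a, b, c, d, e, f].Nodup) (hyV : dist y V = 1) (hy : DPt T y a c e f) : False := by
  have h : Irr U T := X.df.irr
  have hVy : dist V y = 1 := by rw [dist_comm]; exact hyV
  have hny := fun y1 y2 y3 => X.n3 y y1 y2 y3 (card_dpt hy).ge
  have hnV := fun y1 y2 y3 => X.n3 V y1 y2 y3 (card_dpt hV).ge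
  obtain ⟨heV, -⟩ := out636' hV nd
  rcases H79.modes79 h X.nc hy (nd1 nd) with h1 | h1 | ⟨g, g', hg, k1, k2, k3, k4⟩
  · exact no_he_end636 h hy hV nd hVy (H79.pf_of_free79 h hy h1) hny hnV
  · obtain ⟨s, t, -, -, -, -, hs, ht, hord⟩ :=
      one_arc169 h hy.swap (H79.pf_of_free79 h hy.swap h1) hny
    rcases hord V hVy (card_dpt hV).ge with rfl | rfl
    · exact heV hs.2.1
    · exact heV ht.2.1
  · have M : Md98 T y a c e f g g' := ⟨hy, nd2 nd hg, k1, k2, k3, k4⟩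
    exact (L y a c e f g g' M V hVy (card_dpt hV).ge).2 (harm636 h hV nd hg)

/-- **row (E) of `H98/MRow`** -/
theorem rowE98_636 : RowE98 := fun _ _ X L _ _ _ _ _ _ _ M _ hyV hy =>
  erow636 X L M.dpt M.nd hyV hy

end Vale.Agent.P032.H636
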