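import Vale.Agent.P032.H636.Pass
import Vale.Agent.P032.H961.DH
import Vale.Agent.P032.H862.Over
import Vale.Agent.P032.H484.HE

/-!
# P032: no HE end (E1 corner) in the NoThree world

`y = (ac | ef)` with one exact `ac`-arc, its ends the only points of `S(y)` with four colours, and at the
end `V = (ab | cd)` at most two points of `S(V)` with four colours: impossible.  Proof: the closed
`ef`-label of `S(y)` is passed twice (`H636/Pass`), and over each passage there is a point of `S(V)` with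
four colours, different from `y` (product rule, 862).
-/

open Set Filter Topology Metric

noncomputable section

namespace Vale.Agent.P032.H636

open Vale.Agent.P032.Six Vale.Agent.P032.S5.H767 Vale.Agent.P032.H564 Vale.Agent.P032.H961
  Vale.Agent.P032.H862 Vale.Agent.P032.H460

variable {U : Fin 6 → Set ℂ} {T : ℂ → Set (Fin 6)} {y : ℂ} {P : ℝ → ℂ} {α : ℝ}
  {a b c d e f : Fin 6}

/-- the labels: `0` = exact `ef`, `1 = b`, `2 = d` -/
def sg : Fin 3 → Fin 3 := ![2, 0, 1]

theorem sg_surj : ∀ i : Fin 3, ∃ l, sg l = i := by decide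

/-- the reflected cover -/
theorem refl636 {Q : ℝ → Set (Fin 3)} (h : IntCov Q α 6) :
    IntCov (fun t => {l | sg l ∈ Q (6 - t)}) 0 (6 - α) where
  ne t ht := by
    obtain ⟨i, hi⟩ := h.ne (6 - t) ⟨by linarith [ht.2], by linarith [ht.1]⟩
    obtain ⟨l, hl⟩ := sg_surj i
    exact ⟨l, by show sg l ∈ Q (6 - t); rw [hl]; exact hi⟩
  nu t ht := by
    obtain ⟨i, hi⟩ := h.nu (6 - t) ⟨by linarith [ht.2], by linarith [ht.1]⟩
    obtain ⟨l, hl⟩ := sg_surj i
    exact ⟨l, fun h1 => hi (by rw [← hl]; exact h1)⟩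
  usc t ht := by
    have h1 := h.usc (6 - t) ⟨by linarith [ht.2], by linarith [ht.1]⟩
    have h2 : Continuous fun s : ℝ => 6 - s := by fun_prop
    filter_upwards [h2.continuousAt.eventually h1] with s hs l hl
    exact hs hl
  inc t h1 h2 hs := by
    refine h.inc' (6 - (t + 1)) (by linarith) (by linarith) fun i hi => ?_
    obtain ⟨l, hl⟩ := sg_surj i
    have e1 : (6 : ℝ) - (t + 1) + 1 = 6 - t := by ring
    rw [e1] at hi
    subst hl
    exact hs hi
  inc' t h1 h2 hs := by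
    refine h.inc (6 - (t + 1)) (by linarith) (by linarith) fun i hi => ?_
    obtain ⟨l, hl⟩ := sg_surj i
    have e1 : (6 : ℝ) - (t + 1) + 1 = 6 - t := by ring
    rw [e1]
    subst hl
    exact hs hi

/-- the colours outside a two-pair point -/
theorem out636 (hy : DPt T y a c e f) (nd : [a, b, c, d, e, f].Nodup) : b ∉ T y ∧ d ∉ T y := by
  rw [hy.pal]
  simp only [List.nodup_cons, List.mem_cons, List.not_mem_nil, or_false, not_or,
    List.nodup_nil, and_true, not_false_eq_true] at nd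
  obtain ⟨⟨hab, hac, had, hae, haf⟩, ⟨hbc, hbd, hbe, hbf⟩, ⟨hcd, hce, hcf⟩, ⟨hde, hdf⟩, hef⟩ := nd
  simp only [mem_insert_iff, mem_singleton_iff, not_or]
  exact ⟨⟨Ne.symm hab, hbc, hbe, hbf⟩, ⟨Ne.symm had, Ne.symm hcd, hde, hdf⟩⟩

theorem nd1 (nd : [a, b, c, d, e, f].Nodup) : [a, c, e, f, b, d].Nodup := by
  simp only [List.nodup_cons, List.mem_cons, List.not_mem_nil, or_false, not_or,
    List.nodup_nil, and_true, not_false_eq_true] at nd ⊢
  obtain ⟨⟨hab, hac, had, hae, haf⟩, ⟨hbc, hbd, hbe, hbf⟩, ⟨hcd, hce, hcf⟩, ⟨hde, hdf⟩, hef⟩ := nd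
  exact ⟨⟨hac, hae, haf, hab, had⟩, ⟨hce, hcf, Ne.symm hbc, hcd⟩, ⟨hef, Ne.symm hbe, Ne.symm hde⟩,
    ⟨Ne.symm hbf, Ne.symm hdf⟩, hbd⟩

theorem out636' {V : ℂ} (hV : DPt T V a b c d) (nd : [a, b, c, d, e, f].Nodup) :
    e ∉ T V ∧ f ∉ T V := by
  rw [hV.pal]
  simp only [List.nodup_cons, List.mem_cons, List.not_mem_nil, or_false, not_or,
    List.nodup_nil, and_true, not_false_eq_true] at nd
  obtain ⟨⟨hab, hac, had, hae, haf⟩, ⟨hbc, hbd, hbe, hbf⟩, ⟨hcd, hce, hcf⟩, ⟨hde, hdf⟩, hef⟩ := nd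
  simp only [mem_insert_iff, mem_singleton_iff, not_or]
  exact ⟨⟨Ne.symm hae, Ne.symm hbe, Ne.symm hce, Ne.symm hde⟩,
    ⟨Ne.symm haf, Ne.symm hbf, Ne.symm hcf, Ne.symm hdf⟩⟩

/-- the data of `H636/Pass` at an HE end -/
theorem lab636 (A : Ar U T y a c P α) (hy : DPt T y a c e f) (hV : DPt T (P 0) a b c d)
    (nd : [a, b, c, d, e, f].Nodup) :
    Lab (fun t => {l | sg l ∈ Qd T y a c e f b d P (6 - t)}) (6 - α)
      {t | P (6 - t) + P 0 - y ∈ closure (Ex T (P 0) {a, b})}
      {t | P (6 - t) + P 0 - y ∈ closure (Ex T (P 0) {c, d})}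
      {t | 4 ≤ (T (P (6 - t) + P 0 - y)).ncard ∧ P (6 - t) + P 0 - y ≠ y} := by
  have h := A.irr
  have C := ctr_of_dpt h hy (nd1 nd)
  obtain ⟨hb, hd⟩ := out636 hy nd
  obtain ⟨heV, hfV⟩ := out636' hV nd
  have hα := A.α1
  have hV1 : dist (P 0) y = 1 := A.circ.dst 0
  have hcont : Continuous fun t : ℝ => P (6 - t) + P 0 - y := by
    have := A.circ.cont
    fun_prop
  have q0 : ∀ t : ℝ, (0 : Fin 3) ∈ ({l | sg l ∈ Qd T y a c e f b d P (6 - t)} : Set (Fin 3)) →
      P (6 - t) ∈ closure (Ex T y {e, f}) := fun t ht => ht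
  have q1 : ∀ t : ℝ, (1 : Fin 3) ∈ ({l | sg l ∈ Qd T y a c e f b d P (6 - t)} : Set (Fin 3)) →
      b ∈ T (P (6 - t)) := fun t ht => ht.2
  have q2 : ∀ t : ℝ, (2 : Fin 3) ∈ ({l | sg l ∈ Qd T y a c e f b d P (6 - t)} : Set (Fin 3)) →
      d ∈ T (P (6 - t)) := fun t ht => ht.2
  have hI : ∀ t ∈ Ioo 0 (6 - α), (6 - t) ∈ Ioo α 6 := fun t ht =>
    ⟨by linarith [ht.2], by linarith [ht.1]⟩
  have hanti : ∀ t : ℝ, P (6 - t) ∈ closure (Ex T y {e, f}) → P (6 - t) + P 0 - y ≠ y := by
    intro t ht h1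
    exact he_anti862 h hy hV hb hd hV1 ht (by linear_combination h1)
  refine ⟨refl636 (A.intCov C), ?_, ?_, isClosed_closure.preimage hcont,
    isClosed_closure.preimage hcont, ?_, ?_, ?_, ?_⟩
  · -- near the end
    have h1 : Tendsto (fun t : ℝ => 6 - t) (𝓝[>] 0) (𝓝[<] 6) := by
      rw [tendsto_nhdsWithin_iff]
      refine ⟨?_, ?_⟩
      · have h2 : Continuous fun t : ℝ => 6 - t := by fun_prop
        have h3 := h2.tendsto 0
        rw [sub_zero] at h3
        exact h3.mono_left nhdsWithin_le_nhds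
      · filter_upwards [self_mem_nhdsWithin] with t ht
        have ht : 0 < t := ht
        show 6 - t < 6
        linarith
    filter_upwards [h1.eventually A.near6] with t ht h2
    exact heV (ht (sub_of_closure h (q0 t h2) (by simp)))
  · -- the apex
    show P (6 - 1) ∈ closure (Ex T y {e, f})
    have h6 : P 6 = P 0 := by
      have := A.circ.six 0
      rwa [zero_add] at this
    have e5 : (6 : ℝ) - 1 = 5 := by norm_num
    rw [e5]
    have h51 := A.circ.one 5
    rw [show (5 : ℝ) + 1 = 6 by norm_num, h6] at h51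
    exact H484.e1_apex h hV hy heV hfV hV1 h51 (A.circ.dst 5) (A.three 5 ⟨by linarith, by norm_num⟩)
  · intro t ht h0
    exact he_over862 h hy hV hb hd hV1 (q0 t h0)
  · intro t ht h0 h1
    by_cases hw : (T (P (6 - t) + P 0 - y)).ncard ≤ 3
    · left
      exact he_end862 h hy hV hb hd hV1 (q0 t h0) (A.three _ (hI t ht)) (q1 t h1) hw
    · right
      exact ⟨by omega, hanti t (q0 t h0)⟩
  · intro t ht h0 h1
    by_cases hw : (T (P (6 - t) + P 0 - y)).ncard ≤ 3
    · left
      exact he_end862' h hy hV hb hd hV1 (q0 t h0) (A.three _ (hI t ht)) (q2 t h1) hw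
    · right
      exact ⟨by omega, hanti t (q0 t h0)⟩
  · intro t ht hA hC
    have k1 := sub_of_closure h hA
    have k2 := sub_of_closure h hC
    have k3 : T (P 0) ⊆ T (P (6 - t) + P 0 - y) := by
      rw [hV.pal]
      rintro i (rfl | rfl | rfl | hi)
      · exact k1 (by simp)
      · exact k1 (by simp)
      · exact k2 (by simp)
      · rw [mem_singleton_iff] at hi
        subst hi
        exact k2 (by simp)
    refine ⟨?_, fun h4 => hb ?_⟩
    · have e1 := card_dpt hV
      have e2 := Set.ncard_le_ncard k3 (Set.toFinite _)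
      omega
    · rw [← h4]
      exact k1 (by simp)

/-- **no HE end in the NoThree world** -/
theorem Ar.no_he636 (A : Ar U T y a c P α) (hy : DPt T y a c e f) (hV : DPt T (P 0) a b c d)
    (nd : [a, b, c, d, e, f].Nodup) : False := by
  have D := lab636 A hy hV nd
  have hα := A.α1
  have hy4 : 4 ≤ (T y).ncard := (card_dpt hy).ge
  rcases hα.lt_or_eq with h1 | h1
  · obtain ⟨r, r', r0, r5, r0', r5', hne, hr, hr'⟩ := D.two (by linarith)
    have h2 := A.eq_of hy4 (s := 6 - r) (s' := 6 - r') ⟨by linarith, by linarith⟩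
      ⟨by linarith, by linarith⟩ hr hr'
    exact hne (by linarith)
  · obtain ⟨r, r0, r2, hr⟩ := D.one (by linarith)
    exact A.no_meet hy4 h1 (s := 6 - r) ⟨by linarith, by linarith⟩ hr

end Vale.Agent.P032.H636
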