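import Vale.Agent.P032.H636.HE3
import Vale.Agent.P032.H961.DH2
import Vale.Agent.P032.H169.OneArc

/-!
# P032: no HE end (E1 corner) in the NoThree world, raw form

`y = (ac | ef)` plain-free on `a, c`, `V = (ab | cd)` at distance one, at most two points with four colours
on `S(y)` and on `S(V)`: impossible.
-/

open Set Filter Topology Metric

noncomputable section

namespace Vale.Agent.P032.H636

open Vale.Agent.P032.Six Vale.Agent.P032.S5.H767 Vale.Agent.P032.H961

variable {U : Fin 6 → Set ℂ} {T : ℂ → Set (Fin 6)} {V y : ℂ} {a b c d e f : Fin 6}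

/-- **no HE end in the NoThree world** -/
theorem no_he_end636 (h : Irr U T) (hy : DPt T y a c e f) (hV : DPt T V a b c d)
    (nd : [a, b, c, d, e, f].Nodup) (hVy : dist V y = 1) (hp : H383.Pf T y a c)
    (hny : ∀ y1 y2 y3, dist y1 y = 1 → dist y2 y = 1 → dist y3 y = 1 → 4 ≤ (T y1).ncard →
      4 ≤ (T y2).ncard → 4 ≤ (T y3).ncard → y1 = y2 ∨ y1 = y3 ∨ y2 = y3)
    (hnV : ∀ y1 y2 y3, dist y1 V = 1 → dist y2 V = 1 → dist y3 V = 1 → 4 ≤ (T y1).ncard →
      4 ≤ (T y2).ncard → 4 ≤ (T y3).ncard → y1 = y2 ∨ y1 = y3 ∨ y2 = y3) : False := by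
  obtain ⟨s, t, hst, hst1, hI, hall, hs, ht, hord⟩ := one_arc169 h hy hp hny
  rcases hord V hVy (card_dpt hV).ge with rfl | rfl
  · have A := ar_of h hy hst hst1 hall hs.1 ht.1 hord (θ := s) (o := 1) (Or.inl ⟨rfl, rfl⟩) hnV
    exact Ar.no_he636 A hy (by simpa using hV) nd
  · have A := ar_of h hy hst hst1 hall hs.1 ht.1 hord (θ := t) (o := -1) (Or.inr ⟨rfl, rfl⟩) hnV
    exact Ar.no_he636 A hy (by simpa using hV) nd

end Vale.Agent.P032.H636
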