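import Vale.Agent.P032.H564.IntHt

/-!
# P032: passing a label (heights on an open interval)

`pass636` : a height which passes the level of the label `0` completely has a bad point at this level,
if the points with the label `0` are in two closed sets `CA`, `CC` which meet only in bad points, those
with the labels `0, 1` are in `CC` or bad, those with the labels `0, 2` in `CA` or bad.

`Lab.two` : on an interval longer than five with only the labels `1, 2` at its beginning and the label `0`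
at distance one the level is passed twice (two different bad points); `Lab.one` : once before `2`.
-/

open Set Filter Topology

noncomputable section

namespace Vale.Agent.P032.H636

open Vale.Agent.P032.H180 Vale.Agent.P032.H564

variable {Q : ℝ → Set (Fin 3)} {M : ℝ → ℤ} {u v : ℝ} {N : ℤ}

theorem pass636 (H : IntHt Q M u v N) {CA CC Bad : Set ℝ} (hA : IsClosed CA) (hC : IsClosed CC)
    (h0 : ∀ r ∈ Icc u v, 0 ∈ Q r → r ∈ CA ∨ r ∈ CC)
    (h1 : ∀ r ∈ Icc u v, 0 ∈ Q r → 1 ∈ Q r → r ∈ CC ∨ r ∈ Bad)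
    (h2 : ∀ r ∈ Icc u v, 0 ∈ Q r → 2 ∈ Q r → r ∈ CA ∨ r ∈ Bad)
    (hb : ∀ r ∈ Icc u v, r ∈ CA → r ∈ CC → r ∈ Bad)
    {x y : ℝ} (hx : u ≤ x) (hxy : x ≤ y) (hy : y ≤ v) {j : ℤ}
    (hj : M x ≤ 6 * j - 1 ∧ 6 * j + 1 ≤ M y ∨ M y ≤ 6 * j - 1 ∧ 6 * j + 1 ≤ M x) :
    ∃ r ∈ Icc x y, 6 * j - 1 ≤ M r ∧ M r ≤ 6 * j + 1 ∧ r ∈ Bad := by
  by_contra hcon
  push Not at hcon
  classical
  have hsub : Icc x y ⊆ Icc u v := Icc_subset_Icc hx hy
  have m0 : ∀ r ∈ Icc x y, 6 * j - 1 ≤ M r → M r ≤ 6 * j + 1 → 0 ∈ Q r := by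
    intro r hr k1 k2
    rw [H.mem r (hsub hr) 0]
    simp only [Res, Fin.val_zero]
    omega
  have m1 : ∀ r ∈ Icc x y, M r = 6 * j + 1 → r ∈ CC := by
    intro r hr k1
    have e0 := m0 r hr (by omega) (by omega)
    have e1 : 1 ∈ Q r := by
      rw [H.mem r (hsub hr) 1]
      simp only [Res, Fin.val_one]
      omega
    rcases h1 r (hsub hr) e0 e1 with k | k
    · exact k
    · exact absurd k (hcon r hr (by omega) (by omega))
  have m2 : ∀ r ∈ Icc x y, M r = 6 * j - 1 → r ∈ CA := by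
    intro r hr k1
    have e0 := m0 r hr (by omega) (by omega)
    have e1 : 2 ∈ Q r := by
      rw [H.mem r (hsub hr) 2]
      simp only [Res, Fin.val_two]
      omega
    rcases h2 r (hsub hr) e0 e1 with k | k
    · exact k
    · exact absurd k (hcon r hr (by omega) (by omega))
  have mb : ∀ r ∈ Icc x y, 6 * j - 1 ≤ M r → M r ≤ 6 * j + 1 → r ∈ CA → r ∉ CC :=
    fun r hr k1 k2 k3 k4 => hcon r hr k1 k2 (hb r (hsub hr) k3 k4)
  have m3 : ∀ r ∈ Icc x y, 6 * j - 1 ≤ M r → M r ≤ 6 * j + 1 → r ∈ CA ∨ r ∈ CC :=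
    fun r hr k1 k2 => h0 r (hsub hr) (m0 r hr k1 k2)
  have hf := const_pre (S := Icc x y) isPreconnected_Icc
    (f := fun r => if M r ≤ 6 * j - 1 ∨ (M r = 6 * j ∧ r ∈ CA) then 0 else 1) fun t ht => by
      have hloc : ∀ᶠ s in 𝓝[Icc x y] t, |M s - M t| ≤ 1 :=
        nhdsWithin_mono t hsub (H.loc t (hsub ht))
      rcases lt_trichotomy (M t) (6 * j) with ht1 | ht1 | ht1
      · -- below
        have hft : M t ≤ 6 * j - 1 := by omega
        by_cases ht2 : M t = 6 * j - 1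
        · have c1 : t ∈ CA := m2 t ht ht2
          have c2 : t ∉ CC := mb t ht (by omega) (by omega) c1
          filter_upwards [hloc, mem_nhdsWithin_of_mem_nhds (hC.isOpen_compl.mem_nhds c2),
            self_mem_nhdsWithin] with s hs1 hs2 hs3
          have hs2 : s ∉ CC := hs2
          rw [abs_le] at hs1
          have e1 : M s ≤ 6 * j - 1 ∨ (M s = 6 * j ∧ s ∈ CA) := by
            by_cases k : M s ≤ 6 * j - 1
            · exact Or.inl k
            · have k1 : M s = 6 * j := by omega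
              refine Or.inr ⟨k1, (m3 s hs3 (by omega) (by omega)).resolve_right hs2⟩
          show (if _ then (0 : ℤ) else 1) = if _ then (0 : ℤ) else 1
          rw [if_pos e1, if_pos (Or.inl hft)]
        · filter_upwards [hloc] with s hs1
          rw [abs_le] at hs1
          show (if _ then (0 : ℤ) else 1) = if _ then (0 : ℤ) else 1
          rw [if_pos (Or.inl (by omega)), if_pos (Or.inl hft)]
      · by_cases c1 : t ∈ CA
        · have c2 : t ∉ CC := mb t ht (by omega) (by omega) c1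
          filter_upwards [hloc, mem_nhdsWithin_of_mem_nhds (hC.isOpen_compl.mem_nhds c2),
            self_mem_nhdsWithin] with s hs1 hs2 hs3
          have hs2 : s ∉ CC := hs2
          rw [abs_le] at hs1
          have e1 : M s ≤ 6 * j - 1 ∨ (M s = 6 * j ∧ s ∈ CA) := by
            by_cases k : M s ≤ 6 * j - 1
            · exact Or.inl k
            · by_cases k1 : M s = 6 * j
              · exact Or.inr ⟨k1, (m3 s hs3 (by omega) (by omega)).resolve_right hs2⟩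
              · exact absurd (m1 s hs3 (by omega)) hs2
          show (if _ then (0 : ℤ) else 1) = if _ then (0 : ℤ) else 1
          rw [if_pos e1, if_pos (Or.inr ⟨ht1, c1⟩)]
        · filter_upwards [hloc, mem_nhdsWithin_of_mem_nhds (hA.isOpen_compl.mem_nhds c1),
            self_mem_nhdsWithin] with s hs1 hs2 hs3
          have hs2 : s ∉ CA := hs2
          rw [abs_le] at hs1
          have e1 : ¬ (M s ≤ 6 * j - 1 ∨ (M s = 6 * j ∧ s ∈ CA)) := by
            rintro (k | k)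
            · exact hs2 (m2 s hs3 (by omega))
            · exact hs2 k.2
          have e2 : ¬ (M t ≤ 6 * j - 1 ∨ (M t = 6 * j ∧ t ∈ CA)) := by
            rintro (k | k)
            · omega
            · exact c1 k.2
          show (if _ then (0 : ℤ) else 1) = if _ then (0 : ℤ) else 1
          rw [if_neg e1, if_neg e2]
      · have e2 : ¬ (M t ≤ 6 * j - 1 ∨ (M t = 6 * j ∧ t ∈ CA)) := by
          rintro (k | k)
          · omega
          · omega
        by_cases ht2 : M t = 6 * j + 1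
        · have c1 : t ∉ CA := fun k => mb t ht (by omega) (by omega) k (m1 t ht ht2)
          filter_upwards [hloc, mem_nhdsWithin_of_mem_nhds (hA.isOpen_compl.mem_nhds c1)]
            with s hs1 hs2
          have hs2 : s ∉ CA := hs2
          rw [abs_le] at hs1
          have e1 : ¬ (M s ≤ 6 * j - 1 ∨ (M s = 6 * j ∧ s ∈ CA)) := by
            rintro (k | k)
            · omega
            · exact hs2 k.2
          show (if _ then (0 : ℤ) else 1) = if _ then (0 : ℤ) else 1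
          rw [if_neg e1, if_neg e2]
        · filter_upwards [hloc] with s hs1
          rw [abs_le] at hs1
          have e1 : ¬ (M s ≤ 6 * j - 1 ∨ (M s = 6 * j ∧ s ∈ CA)) := by
            rintro (k | k)
            · omega
            · omega
          show (if _ then (0 : ℤ) else 1) = if _ then (0 : ℤ) else 1
          rw [if_neg e1, if_neg e2]
  have hfin := hf x ⟨le_rfl, hxy⟩ y ⟨hxy, le_rfl⟩
  have hfin : (if M x ≤ 6 * j - 1 ∨ (M x = 6 * j ∧ x ∈ CA) then (0 : ℤ) else 1) =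
      if M y ≤ 6 * j - 1 ∨ (M y = 6 * j ∧ y ∈ CA) then (0 : ℤ) else 1 := hfin
  rcases hj with ⟨k1, k2⟩ | ⟨k1, k2⟩
  · have e2 : ¬ (M y ≤ 6 * j - 1 ∨ (M y = 6 * j ∧ y ∈ CA)) := by
      rintro (k | k)
      · omega
      · omega
    rw [if_pos (Or.inl k1), if_neg e2] at hfin
    omega
  · have e2 : ¬ (M x ≤ 6 * j - 1 ∨ (M x = 6 * j ∧ x ∈ CA)) := by
      rintro (k | k)
      · omega
      · omega
    rw [if_neg e2, if_pos (Or.inl k1)] at hfin
    omega

/-- the start: only the labels `1, 2` near the beginning, the label `0` at `a + 1` -/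
theorem start636 (H : IntHt Q M u v N) (huv : u + 1 ≤ v) {w : ℝ} (hw : w ∈ Icc u v)
    (hQ : 0 ∉ Q u) (hw0 : 0 ∈ Q w) (hnear : |M (u + 1) - M w| ≤ 1) :
    ∃ k, (6 * k + 2 ≤ M u ∧ M u ≤ 6 * k + 4) ∧
      (0 ≤ N ∧ 6 * k + 5 ≤ M w ∨ N < 0 ∧ M w ≤ 6 * k + 1) := by
  have e1 : ¬ Res (M u - 2 * ((0 : Fin 3) : ℕ)) := fun h => hQ ((H.mem u ⟨le_rfl, by linarith⟩ 0).2 h)
  have e2 := (H.mem w hw 0).1 hw0
  simp only [Res, Fin.val_zero] at e1 e2
  have e3 := H.step u le_rfl huv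
  rw [abs_le] at hnear
  refine ⟨M u / 6, by omega, ?_⟩
  rcases lt_or_ge N 0 with hN | hN
  · right
    refine ⟨hN, ?_⟩
    omega
  · left
    refine ⟨hN, ?_⟩
    omega

/-- `Q s ⊆ Q 1` on an interval keeps the height within one -/
theorem near636 (H : IntHt Q M u v N) {w z : ℝ} (hw : u ≤ w) (hwz : w ≤ z) (hz : z ≤ v)
    (hQ : ∀ s ∈ Icc w z, Q s ⊆ Q w) : |M z - M w| ≤ 1 := by
  have hsub : Icc w z ⊆ Icc u v := Icc_subset_Icc hw hz
  have hres : ∀ s ∈ Icc w z, (M s - M w) % 6 = 0 ∨ (M s - M w) % 6 = 1 ∨ (M s - M w) % 6 = 5 := by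
    intro s hs
    have k : ∀ l : Fin 3, Res (M s - 2 * (l : ℕ)) → Res (M w - 2 * (l : ℕ)) := fun l hl =>
      (H.mem w (hsub ⟨le_rfl, hwz⟩) l).1 (hQ s hs ((H.mem s (hsub hs) l).2 hl))
    have k0 := k 0
    have k1 := k 1
    have k2 := k 2
    simp only [Res, Fin.val_zero, Fin.val_one, Fin.val_two] at k0 k1 k2
    omega
  have hf := const_pre (S := Icc w z) isPreconnected_Icc (f := fun s => (M s - M w + 1) / 6)
    fun t ht => by
      filter_upwards [nhdsWithin_mono t hsub (H.loc t (hsub ht)), self_mem_nhdsWithin] with s hs hsI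
      rw [abs_le] at hs
      have e1 := hres s hsI
      have e2 := hres t ht
      show (M s - M w + 1) / 6 = (M t - M w + 1) / 6
      omega
  have h1 : (M z - M w + 1) / 6 = (M w - M w + 1) / 6 := hf z ⟨hwz, le_rfl⟩ w ⟨le_rfl, hwz⟩
  have e1 := hres z ⟨hwz, le_rfl⟩
  rw [abs_le]
  omega

/-- data: the label `0` on an open interval -/
structure Lab (Q : ℝ → Set (Fin 3)) (L : ℝ) (CA CC Bad : Set ℝ) : Prop where
  cov : IntCov Q 0 L
  nb : ∀ᶠ t in 𝓝[>] (0 : ℝ), 0 ∉ Q t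
  ap : 0 ∈ Q 1
  hA : IsClosed CA
  hC : IsClosed CC
  h0 : ∀ r ∈ Ioo 0 L, 0 ∈ Q r → r ∈ CA ∨ r ∈ CC
  h1 : ∀ r ∈ Ioo 0 L, 0 ∈ Q r → 1 ∈ Q r → r ∈ CC ∨ r ∈ Bad
  h2 : ∀ r ∈ Ioo 0 L, 0 ∈ Q r → 2 ∈ Q r → r ∈ CA ∨ r ∈ Bad
  hb : ∀ r ∈ Ioo 0 L, r ∈ CA → r ∈ CC → r ∈ Bad

theorem Lab.start {L : ℝ} {CA CC Bad : Set ℝ} (D : Lab Q L CA CC Bad) {v : ℝ} (hv : 2 ≤ v)
    (hvL : v < L) : ∃ u M N k, 0 < u ∧ u < 1 ∧ IntHt Q M u v N ∧ (6 * k + 2 ≤ M u ∧ M u ≤ 6 * k + 4) ∧
      (0 ≤ N ∧ 6 * k + 5 ≤ M 1 ∨ N < 0 ∧ M 1 ≤ 6 * k + 1) := by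
  have h1 : ∀ᶠ s in 𝓝 (1 : ℝ), Q s ⊆ Q 1 := D.cov.usc 1 ⟨one_pos, by linarith⟩
  obtain ⟨ε, hε, hb⟩ := Metric.eventually_nhds_iff.1 h1
  obtain ⟨u, ⟨hu1, hu2⟩, hu3⟩ := ((D.nb.and (Ioo_mem_nhdsGT (show (0 : ℝ) < min ε 1 by
    positivity))).and self_mem_nhdsWithin).exists
  have hu0 : 0 < u := hu2.1
  have hue : u < ε := lt_of_lt_of_le hu2.2 (min_le_left _ _)
  have hul : u < 1 := lt_of_lt_of_le hu2.2 (min_le_right _ _)
  obtain ⟨M, N, H⟩ := D.cov.exHt (u := u) (v := v) hu0 (by linarith) hvL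
  have hn : |M (u + 1) - M 1| ≤ 1 := by
    refine near636 H hul.le (by linarith) (by linarith) fun s hs => hb ?_
    rw [Real.dist_eq, abs_lt]
    constructor <;> linarith [hs.1, hs.2]
  obtain ⟨k, hk1, hk2⟩ := start636 H (by linarith) (w := 1) ⟨hul.le, by linarith⟩ hu1 D.ap hn
  exact ⟨u, M, N, k, hu0, hul, H, hk1, hk2⟩

/-- one bad point before `2` -/
theorem Lab.one {L : ℝ} {CA CC Bad : Set ℝ} (D : Lab Q L CA CC Bad) (hL : 2 < L) :
    ∃ r, 0 < r ∧ r ≤ 2 ∧ r ∈ Bad := by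
  obtain ⟨u, M, N, k, hu0, hu1, H, hk, hk2⟩ := D.start le_rfl hL
  have hI : ∀ r ∈ Icc u 2, r ∈ Ioo 0 L := fun r hr => ⟨by linarith [hr.1], by linarith [hr.2]⟩
  have s1 := H.step 1 hu1.le (by norm_num)
  rw [show (1 : ℝ) + 1 = 2 by norm_num] at s1
  have hp := fun j hj => pass636 H D.hA D.hC (fun r hr => D.h0 r (hI r hr))
    (fun r hr => D.h1 r (hI r hr)) (fun r hr => D.h2 r (hI r hr)) (fun r hr => D.hb r (hI r hr))
    (x := u) (y := 2) le_rfl (by linarith) le_rfl (j := j) hj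
  rcases hk2 with ⟨hN, hM⟩ | ⟨hN, hM⟩
  · obtain ⟨r, hr, -, -, hrb⟩ := hp (k + 1) (Or.inl ⟨by omega, by omega⟩)
    exact ⟨r, by linarith [hr.1], hr.2, hrb⟩
  · obtain ⟨r, hr, -, -, hrb⟩ := hp k (Or.inr ⟨by omega, by omega⟩)
    exact ⟨r, by linarith [hr.1], hr.2, hrb⟩

/-- two bad points before `5` -/
theorem Lab.two {L : ℝ} {CA CC Bad : Set ℝ} (D : Lab Q L CA CC Bad) (hL : 5 < L) :
    ∃ r r', 0 < r ∧ r ≤ 5 ∧ 0 < r' ∧ r' ≤ 5 ∧ r ≠ r' ∧ r ∈ Bad ∧ r' ∈ Bad := by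
  obtain ⟨u, M, N, k, hu0, hu1, H, hk, hk2⟩ := D.start (v := 5) (by norm_num) hL
  have hI : ∀ r ∈ Icc u 5, r ∈ Ioo 0 L := fun r hr => ⟨by linarith [hr.1], by linarith [hr.2]⟩
  have s1 := H.step 1 hu1.le (by norm_num)
  have s2 := H.step 2 (by linarith) (by norm_num)
  have s3 := H.step 3 (by linarith) (by norm_num)
  have s4 := H.step 4 (by linarith) (by norm_num)
  rw [show (1 : ℝ) + 1 = 2 by norm_num] at s1
  rw [show (2 : ℝ) + 1 = 3 by norm_num] at s2
  rw [show (3 : ℝ) + 1 = 4 by norm_num] at s3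
  rw [show (4 : ℝ) + 1 = 5 by norm_num] at s4
  have hp := fun j hj => pass636 H D.hA D.hC (fun r hr => D.h0 r (hI r hr))
    (fun r hr => D.h1 r (hI r hr)) (fun r hr => D.h2 r (hI r hr)) (fun r hr => D.hb r (hI r hr))
    (x := u) (y := 5) le_rfl (by linarith) le_rfl (j := j) hj
  rcases hk2 with ⟨hN, hM⟩ | ⟨hN, hM⟩
  · obtain ⟨r, hr, m1, m2, hrb⟩ := hp (k + 1) (Or.inl ⟨by omega, by omega⟩)
    obtain ⟨r', hr', m1', m2', hrb'⟩ := hp (k + 2) (Or.inl ⟨by omega, by omega⟩)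
    refine ⟨r, r', by linarith [hr.1], hr.2, by linarith [hr'.1], hr'.2, ?_, hrb, hrb'⟩
    rintro rfl
    omega
  · obtain ⟨r, hr, m1, m2, hrb⟩ := hp k (Or.inr ⟨by omega, by omega⟩)
    obtain ⟨r', hr', m1', m2', hrb'⟩ := hp (k - 1) (Or.inr ⟨by omega, by omega⟩)
    refine ⟨r, r', by linarith [hr.1], hr.2, by linarith [hr'.1], hr'.2, ?_, hrb, hrb'⟩
    rintro rfl
    omega

end Vale.Agent.P032.H636
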